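import Vale.Agent.P207.N3.Spec

/-!
# P207, N3: the plane inside the space

`pk s u = (s, u₀, u₁)`, `ext a = 1 ⊕ a`, `sg = diag (-1, 1, 1)`, `e0 = (1, 0, 0)`.
-/

open Set Filter Topology Metric

noncomputable section

namespace Vale.Agent.P207.N3.H76

/-- `(s, u₀, u₁)` -/
def pk (s : ℝ) (u : E2) : E3 := !₂[s, u 0, u 1]

/-- the last two coordinates -/
def tl (v : E3) : E2 := !₂[v 1, v 2]

@[simp] theorem pk_zero (s : ℝ) (u : E2) : pk s u 0 = s := rfl
@[simp] theorem pk_one (s : ℝ) (u : E2) : pk s u 1 = u 0 := rfl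
@[simp] theorem pk_two (s : ℝ) (u : E2) : pk s u 2 = u 1 := rfl
@[simp] theorem tl_zero (v : E3) : tl v 0 = v 1 := rfl
@[simp] theorem tl_one (v : E3) : tl v 1 = v 2 := rfl

@[simp] theorem tl_pk (s : ℝ) (u : E2) : tl (pk s u) = u := by
  ext i; fin_cases i <;> rfl

@[simp] theorem pk_tl (v : E3) : pk (v 0) (tl v) = v := by
  ext i; fin_cases i <;> rfl

theorem pk_inj {s t : ℝ} {u v : E2} : pk s u = pk t v ↔ s = t ∧ u = v := by
  constructor
  · intro h
    exact ⟨by simpa using congrArg (fun w : E3 => w 0) h, by simpa using congrArg tl h⟩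
  · rintro ⟨rfl, rfl⟩; rfl

/-- `pk` as a linear map -/
def pkL : (ℝ × E2) →ₗ[ℝ] E3 where
  toFun p := pk p.1 p.2
  map_add' p q := by ext i; fin_cases i <;> rfl
  map_smul' c p := by ext i; fin_cases i <;> rfl

/-- `tl` as a linear map -/
def tlL : E3 →ₗ[ℝ] E2 where
  toFun := tl
  map_add' p q := by ext i; fin_cases i <;> rfl
  map_smul' c p := by ext i; fin_cases i <;> rfl

theorem pk_add (s t : ℝ) (u v : E2) : pk (s + t) (u + v) = pk s u + pk t v :=
  pkL.map_add (s, u) (t, v)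

theorem pk_smul (c s : ℝ) (u : E2) : pk (c * s) (c • u) = c • pk s u := pkL.map_smul c (s, u)

theorem tl_add (v w : E3) : tl (v + w) = tl v + tl w := tlL.map_add v w

theorem tl_smul (c : ℝ) (v : E3) : tl (c • v) = c • tl v := tlL.map_smul c v

theorem continuous_pk : Continuous fun p : ℝ × E2 => pk p.1 p.2 :=
  pkL.continuous_of_finiteDimensional

theorem continuous_tl : Continuous tl := tlL.continuous_of_finiteDimensional

theorem contDiff_pk : ContDiff ℝ ⊤ fun p : ℝ × E2 => pk p.1 p.2 :=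
  (LinearMap.toContinuousLinearMap pkL).contDiff

theorem norm_sq (v : E3) : ‖v‖ ^ 2 = v 0 ^ 2 + ‖tl v‖ ^ 2 := by
  rw [EuclideanSpace.norm_sq_eq, EuclideanSpace.norm_sq_eq, Fin.sum_univ_three, Fin.sum_univ_two]
  simp only [tl_zero, tl_one, Real.norm_eq_abs, sq_abs]
  ring

theorem norm_pk_sq (s : ℝ) (u : E2) : ‖pk s u‖ ^ 2 = s ^ 2 + ‖u‖ ^ 2 := by
  rw [norm_sq, tl_pk, pk_zero]

@[simp] theorem norm_pk_zero_left (u : E2) : ‖pk 0 u‖ = ‖u‖ := by
  have h := norm_pk_sq 0 u
  have h1 : ‖pk 0 u‖ ^ 2 = ‖u‖ ^ 2 := by rw [h]; ring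
  exact (pow_left_inj₀ (norm_nonneg _) (norm_nonneg _) two_ne_zero).1 h1

/-- the first basis vector -/
def e0 : E3 := pk 1 0

@[simp] theorem norm_e0 : ‖e0‖ = 1 := by
  have h := norm_pk_sq 1 0
  have h1 : ‖e0‖ ^ 2 = 1 ^ 2 := by rw [e0, h]; simp
  exact (pow_left_inj₀ (norm_nonneg _) zero_le_one two_ne_zero).1 h1

theorem pk_zero_right (s : ℝ) : pk s 0 = s • e0 := by
  rw [e0, ← pk_smul, mul_one, smul_zero]

/-- `1 ⊕ a` -/
def ext (a : O2) : O3 where
  toFun v := pk (v 0) (a (tl v))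
  invFun v := pk (v 0) (a.symm (tl v))
  left_inv v := by simp
  right_inv v := by simp
  map_add' v w := by
    rw [tl_add, map_add, ← pk_add]; rfl
  map_smul' c v := by
    rw [tl_smul, map_smul, RingHom.id_apply, ← pk_smul]; rfl
  norm_map' v := by
    have h : ‖pk (v 0) (a (tl v))‖ ^ 2 = ‖v‖ ^ 2 := by
      rw [norm_pk_sq, norm_sq v, LinearIsometryEquiv.norm_map]
    exact (pow_left_inj₀ (norm_nonneg _) (norm_nonneg _) two_ne_zero).1 h

theorem ext_apply (a : O2) (v : E3) : ext a v = pk (v 0) (a (tl v)) := rfl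

@[simp] theorem ext_pk (a : O2) (s : ℝ) (u : E2) : ext a (pk s u) = pk s (a u) := by
  rw [ext_apply, pk_zero, tl_pk]

@[simp] theorem ext_e0 (a : O2) : ext a e0 = e0 := by rw [e0, ext_pk, map_zero]

@[simp] theorem ext_one : ext 1 = 1 := by
  ext1 v
  change pk (v 0) (tl v) = v
  exact pk_tl v

theorem ext_mul (a b : O2) : ext (a * b) = ext a * ext b := by
  ext1 v
  change pk (v 0) (a (b (tl v))) = ext a (ext b v)
  rw [ext_apply b v, ext_pk]

/-- `diag (-1, 1, 1)` -/
def sg : O3 where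
  toFun v := pk (-v 0) (tl v)
  invFun v := pk (-v 0) (tl v)
  left_inv v := by simp
  right_inv v := by simp
  map_add' v w := by
    rw [tl_add, ← pk_add]
    congr 1
    change -(v 0 + w 0) = _
    ring
  map_smul' c v := by
    rw [tl_smul, RingHom.id_apply, ← pk_smul]
    congr 1
    change -(c * v 0) = _
    ring
  norm_map' v := by
    have h : ‖pk (-v 0) (tl v)‖ ^ 2 = ‖v‖ ^ 2 := by
      rw [norm_pk_sq, norm_sq v]; ring
    exact (pow_left_inj₀ (norm_nonneg _) (norm_nonneg _) two_ne_zero).1 h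

theorem sg_apply (v : E3) : sg v = pk (-v 0) (tl v) := rfl

@[simp] theorem sg_pk (s : ℝ) (u : E2) : sg (pk s u) = pk (-s) u := by
  rw [sg_apply, pk_zero, tl_pk]

@[simp] theorem sg_e0 : sg e0 = -e0 := by
  rw [e0, sg_pk, ← neg_one_mul, ← smul_zero (-1 : ℝ), pk_smul, neg_one_smul, smul_zero]

theorem sg_mul_sg : sg * sg = 1 := by
  ext1 v
  change sg (sg v) = v
  rw [sg_apply v, sg_pk, neg_neg, pk_tl]

theorem sg_mul_ext (a : O2) : sg * ext a = ext a * sg := by
  ext1 v
  change sg (ext a v) = ext a (sg v)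
  rw [ext_apply, sg_apply v, ext_pk, sg_pk]

/-- an orthogonal map which fixes `e0` is `1 ⊕ a` -/
theorem exists_ext {A : O3} (h : A e0 = e0) : ∃ a : O2, A = ext a := by
  have h0 : ∀ v : E3, inner ℝ v e0 = v 0 := by
    intro v
    rw [e0, PiLp.inner_apply, Fin.sum_univ_three]
    simp
  have hA : ∀ v, (A v) 0 = v 0 := by
    intro v
    rw [← h0, ← h0 v]
    conv_lhs => rw [← h]
    exact A.inner_map_map v e0
  have hB : ∀ v, (A.symm v) 0 = v 0 := by
    intro v
    rw [← hA (A.symm v), A.apply_symm_apply]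
  have hpk : ∀ u : E2, pk 0 (tl (A (pk 0 u))) = A (pk 0 u) := by
    intro u
    have := pk_tl (A (pk 0 u))
    rwa [hA, pk_zero] at this
  have hpk' : ∀ u : E2, pk 0 (tl (A.symm (pk 0 u))) = A.symm (pk 0 u) := by
    intro u
    have := pk_tl (A.symm (pk 0 u))
    rwa [hB, pk_zero] at this
  have hlin : ∀ u v : E2, pk 0 (u + v) = pk 0 u + pk 0 v := by
    intro u v
    rw [← pk_add, add_zero]
  have hsm : ∀ (c : ℝ) (u : E2), pk 0 (c • u) = c • pk 0 u := by
    intro c u
    rw [← pk_smul, mul_zero]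
  let a : O2 :=
    { toFun := fun u => tl (A (pk 0 u))
      invFun := fun u => tl (A.symm (pk 0 u))
      left_inv := fun u => by
        simp only [hpk, LinearIsometryEquiv.symm_apply_apply, tl_pk]
      right_inv := fun u => by
        simp only [hpk', LinearIsometryEquiv.apply_symm_apply, tl_pk]
      map_add' := fun u v => by rw [hlin, map_add, tl_add]
      map_smul' := fun c u => by rw [hsm, map_smul, tl_smul, RingHom.id_apply]
      norm_map' := fun u => by
        change ‖tl (A (pk 0 u))‖ = ‖u‖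
        rw [← norm_pk_zero_left (tl (A (pk 0 u))), hpk, A.norm_map, norm_pk_zero_left] }
  refine ⟨a, ?_⟩
  ext1 v
  have e1 : v = v 0 • e0 + pk 0 (tl v) := by
    rw [← pk_zero_right, ← pk_add, add_zero, zero_add, pk_tl]
  have e2 : A (pk 0 (tl v)) = pk 0 (a (tl v)) := (hpk (tl v)).symm
  rw [ext_apply]
  conv_lhs => rw [e1]
  rw [map_add, map_smul, h, e2, ← pk_zero_right, ← pk_add, add_zero, zero_add]

/-- the orthogonal group is transitive on the unit sphere -/
theorem exists_rot_e0 {u : E3} (hu : ‖u‖ = 1) : ∃ A : O3, A e0 = u := by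
  by_cases h : u = e0
  · exact ⟨1, h.symm⟩
  · have h1 : ‖e0‖ = ‖u‖ := by rw [norm_e0, hu]
    refine ⟨Submodule.reflection (ℝ ∙ (e0 - u))ᗮ, ?_⟩
    exact Submodule.reflection_sub h1

end Vale.Agent.P207.N3.H76
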