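import Vale.Agent.P207.N3.H76.SliceC0
import Vale.Agent.P207.N3.H459.SlicePre
import Vale.Agent.P207.N3.H728.GeoGrp

/-!
# P207, N3: the charts of the leaves over the geometry
-/

open Set Filter Topology Metric Real
open scoped ContDiff
open Vale.Agent.P207.N3.H728 Vale.Agent.P207.N3.H709

set_option linter.unusedSectionVars false

noncomputable section

namespace Vale.Agent.P207.N3.H728.Had

variable {Y : Type*} [MetricSpace Y] [ProperSpace Y] (H : Had Y) {o : Y}
  {Γ : Type*} [Group Γ] [MulAction Γ Y] [IsIsometricSMul Γ Y]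

theorem cv_smul (g : Γ) (ξ : Bd o) (q : Y) : H.cv (act H o g ξ) (g • q) = g • H.cv ξ q :=
  (H.eq_cv (by rw [H709.em_smul, em_cv]) (by rw [smul_ln_apply, cv_zero])).symm

theorem psi_smul (g : Γ) (ξ : Bd o) (s : ℝ) (q : Y) :
    H.psi (act H o g ξ) s (g • q) = g • H.psi ξ s q := by
  rw [psi, cv_smul, smul_ln_apply]; rfl

theorem line'_smul (g : Γ) (ξ : Bd o) (q : Y) :
    H.line' (act H o g ξ) (g • q) = act H o g (H.line' ξ q) := by
  rw [line', cv_smul, H709.ep_smul]; rfl

end Vale.Agent.P207.N3.H728.Had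

namespace Vale.Agent.P207.N3.H76

namespace Geo

variable {Γ X Y : Type} [Group Γ] [MetricSpace X] [ProperSpace X] [MetricSpace Y]
  [ProperSpace Y] [MulAction Γ X] [MulAction Γ Y] [IsIsometricSMul Γ X] [IsIsometricSMul Γ Y]
  (G : Geo Γ X Y) (o : Y)

variable {V : Type} [NormedAddCommGroup V] [NormedSpace ℝ V] (j : Y ≃ₜ V)

/-- the point at time `s` of the geodesic from `em x` through the point `E x (0, u)` -/
def A (x : X) (z : ℝ × E2) : V := j (G.had.psi (G.em o x) z.1 (G.E x (pk 0 z.2)))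

theorem A_disc (x : X) (u : E2) : G.A o j x (0, u) = j (G.E x (pk 0 u)) := by
  simp only [A, G.had.psi_zero]

theorem pk_zero_zero : pk 0 0 = 0 := by
  rw [pk_zero_right, zero_smul]

theorem A_zero (x : X) : G.A o j x 0 = j (G.ft x) := by
  have h : (0 : ℝ × E2) = (0, 0) := rfl
  rw [h, A_disc, pk_zero_zero, G.E_zero]

theorem A_smul (g : Γ) (x : X) (z : ℝ × E2) :
    G.A o j (g • x) z = j (g • j.symm (G.A o j x z)) := by
  simp only [A, j.symm_apply_apply, G.em_smul, G.E_smul, G.had.psi_smul]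

theorem dist_disc (x : X) (u : E2) : dist (G.ft x) (G.E x (pk 0 u)) = ‖u‖ := by
  rw [G.E_dist, norm_pk_zero_left]

theorem A_lev (x : X) (s : ℝ) (u v : E2) (h : G.A o j x (s, u) = G.A o j x (0, v)) :
    |s| ≤ ‖u‖ + ‖v‖ := by
  rw [A_disc] at h
  have h1 : G.had.psi (G.em o x) s (G.E x (pk 0 u)) = G.E x (pk 0 v) := j.injective h
  rw [← G.had.dist_psi (G.em o x) s (G.E x (pk 0 u)), h1, ← G.dist_disc x u, ← G.dist_disc x v]
  exact dist_triangle_left _ _ _

/-- **the smooth input**: the tubes are smooth, transversal to the disc at the foot point, and the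
group acts by differentiable maps -/
structure Sm3 where
  ε : ℝ
  ε_pos : 0 < ε
  A_jc : JC (G.A o j) (univ ×ˢ (univ ×ˢ ball 0 ε))
  A_der : ∀ x, Function.Bijective (fderiv ℝ (G.A o j x) 0)
  diff_smul : ∀ g : Γ, Differentiable ℝ fun p => j (g • j.symm p)

variable {o} {j}

/-- slice data on a small disc -/
def pre (S : G.Sm3 o j) : H459.Pre X (Bd o) V where
  toBase := G.base o j
  ε := S.ε
  ε_pos := S.ε_pos
  A := G.A o j
  A_jc := S.A_jc
  A_zero := G.A_zero o j
  A_psi x s u _ := by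
    change j _ = j (G.had.psi (G.em o x) s (j.symm (G.A o j x (0, u))))
    rw [A_disc, j.symm_apply_apply]
  A_der := S.A_der
  A_lev x s u _ v _ h := G.A_lev o j x s u v h
  cocompact := by
    obtain ⟨K, hK, hKc⟩ := G.cocompact
    refine ⟨K, hK, fun x => ?_⟩
    obtain ⟨g, hg⟩ := hKc x
    refine ⟨g • x, hg, fun p => j (g⁻¹ • j.symm p), fun p => j (g • j.symm p),
      S.diff_smul g⁻¹, S.diff_smul g, fun p => ?_, fun p => ?_, fun s u _ => ?_⟩
    · simp only [j.symm_apply_apply, smul_inv_smul, j.apply_symm_apply]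
    · simp only [j.symm_apply_apply, inv_smul_smul, j.apply_symm_apply]
    · beta_reduce
      rw [G.A_smul, j.symm_apply_apply, inv_smul_smul, j.apply_symm_apply]

variable (o) in
/-- the charts of the leaves: end point of the geodesic from `em x` through `E x (0, r₀ u)` -/
def e (r₀ : ℝ) (x : X) (u : E2) : Bd o := G.had.line' (G.em o x) (G.E x (pk 0 (r₀ • u)))

theorem e_smul' (r₀ : ℝ) (g : Γ) (x : X) (u : E2) :
    G.e o r₀ (g • x) u = H709.act G.had o g (G.e o r₀ x u) := by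
  simp only [e, G.em_smul, G.E_smul, G.had.line'_smul]

theorem e_rot' (r₀ : ℝ) (a : O2) (x : X) (u : E2) :
    G.e o r₀ (G.rot a x) u = G.e o r₀ x (a u) := by
  rw [e, G.em_rot, rot, G.E_act, ext_pk, map_smul, e]

theorem e_ne' (r₀ : ℝ) (x : X) (u : E2) : G.e o r₀ x u ≠ G.em o x := G.had.line'_ne _ _

variable [FiniteDimensional ℝ V]

section Charts

variable (S : G.Sm3 o j) {r₀ : ℝ} (hr : (G.pre S).Small r₀)

/-- the slice data -/
def slc : H459.Slice X (Bd o) V := H459.Pre.slice hr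

theorem slc_em (x : X) : (G.slc S hr).em x = G.em o x := rfl

theorem slc_ep (x : X) : (G.slc S hr).ep x = G.ep o x := rfl

theorem slc_ft (x : X) : (G.slc S hr).ft x = j (G.ft x) := rfl

theorem slc_psi (ξ : Bd o) (s : ℝ) (q : V) :
    (G.slc S hr).psi ξ s q = j (G.had.psi ξ s (j.symm q)) := rfl

theorem slc_line (ξ : Bd o) (q : V) : (G.slc S hr).line ξ q = G.had.line' ξ (j.symm q) := rfl

theorem slc_A (x : X) (s : ℝ) (u : E2) : (G.slc S hr).A x (s, u) = G.A o j x (s, r₀ • u) := rfl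

theorem slc_e : (G.slc S hr).e = G.e o r₀ := by
  funext x u
  change G.had.line' (G.em o x) (j.symm (G.A o j x (0, r₀ • u))) = _
  rw [A_disc, j.symm_apply_apply]
  rfl

include S hr

theorem e_cont : ContinuousOn (fun p : X × E2 => G.e o r₀ p.1 p.2) (univ ×ˢ closedBall 0 3) := by
  have h := (G.slc S hr).e_cont
  rwa [slc_e] at h

theorem e_zero (x : X) : G.e o r₀ x 0 = G.ep o x := by
  have h := (G.slc S hr).e_zero x
  rwa [slc_e, slc_ep] at h

theorem e_inj (x : X) : InjOn (G.e o r₀ x) (closedBall 0 3) := by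
  have h := (G.slc S hr).e_inj x
  rwa [slc_e] at h

theorem e_open (hinv : H459.InvThm) : IsOpen {p : X × Bd o | p.2 ∈ G.e o r₀ p.1 '' ball 0 3} := by
  have h := (G.slc S hr).e_open hinv (H459.hop_of _ _ _ (G.lv o) (G.em_cont o) (G.ep_cont o)
    (j.continuous.comp G.ft_cont) (G.lv_cont o) (G.em_ne_ep o) (G.exists_frame o)
    (fun x y h1 h2 h3 => by
      obtain ⟨a, rfl⟩ := G.frame_unique o x y h1 h2 h3
      exact congrArg j (G.ft_rot a x).symm) (G.hopf_proper o))
  rwa [slc_e] at h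

theorem tau_smooth (hinv : H459.InvThm) (x y : X) (hem : G.em o x = G.em o y) :
    ContDiffOn ℝ ∞ (tau (G.e o r₀) x y) (dom (G.e o r₀) x y) := by
  have h := (G.slc S hr).tau_smooth hinv x y hem
  rwa [slc_e] at h

theorem tau_cont (hinv : H459.InvThm) (k : ℕ) : ContinuousOn
    (fun p : (X × X) × E2 => iteratedFDeriv ℝ k (tau (G.e o r₀) p.1.1 p.1.2) p.2)
    {p | G.em o p.1.1 = G.em o p.1.2 ∧ p.2 ∈ dom (G.e o r₀) p.1.1 p.1.2} := by
  have h := (G.slc S hr).tau_cont hinv k
  rwa [slc_e] at h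

theorem near (c : ℝ) : ∃ C, ∀ x y, G.em o x = G.em o y → |G.lv o x - G.lv o y| ≤ c →
    (G.e o r₀ x '' closedBall 0 3 ∩ G.e o r₀ y '' closedBall 0 3).Nonempty → dist x y ≤ C := by
  have h := (G.slc S hr).near (G.lv o) (fun p q => dist (j.symm p) (j.symm q))
    (fun ξ p => bus ξ.ln (j.symm p)) (3 * r₀) (fun p q => dist_comm _ _)
    (fun p q r => dist_triangle _ _ _) ?_ ?_ ?_ ?_ ?_ ?_ c
  · rwa [slc_e] at h
  · intro x u hu
    rw [slc_ft, slc_A, A_disc, j.symm_apply_apply, j.symm_apply_apply, dist_disc, norm_smul,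
      Real.norm_eq_abs, abs_of_pos hr.pos, mul_comm]
    rw [mem_closedBall_zero_iff] at hu
    exact mul_le_mul_of_nonneg_right hu hr.pos.le
  · intro x
    rw [slc_em, slc_ft, j.symm_apply_apply, G.lv_eq]
  · intro ξ p q
    exact bus_lip _ _ _
  · intro ξ s p
    rw [slc_psi, j.symm_apply_apply, G.had.bus_psi]
  · intro ξ s p
    rw [slc_psi, j.symm_apply_apply, G.had.dist_psi]
  · intro c
    obtain ⟨C, hC⟩ := G.bdd_ft c
    refine ⟨C, fun x y hxy => hC x y ?_⟩
    simpa only [slc_ft, j.symm_apply_apply] using hxy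

end Charts

end Geo

end Vale.Agent.P207.N3.H76
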