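import Vale.Agent.P207.N3.H76.Ext
import Vale.Agent.P207.N3.H728.Bdry
import Vale.Agent.P207.N3.H709.Axis

/-!
# P207, N3: frames over a Hadamard space, and the projection to the space of lines

`Geo Γ X Y`: `X` = orthonormal frames of the Hadamard manifold `Y`, `act` = the right action of the
orthogonal group of the space, `E x u` = exponential map in the frame `x`, `φ` = frame flow.
-/

open Set Filter Topology Metric Real
open Vale.Agent.P207.N3.H728 Vale.Agent.P207.N3.H709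

noncomputable section

namespace Vale.Agent.P207.N3.H76

/-- The `C⁰` geometry of the frame bundle of a Hadamard manifold of dimension three with a
cocompact group. -/
structure Geo (Γ X Y : Type) [Group Γ] [MetricSpace X] [ProperSpace X] [MetricSpace Y]
    [ProperSpace Y] [MulAction Γ X] [MulAction Γ Y] [IsIsometricSMul Γ X]
    [IsIsometricSMul Γ Y] where
  /-- comparison -/
  had : Had Y
  nonempty : Nonempty X
  /-- foot point -/
  ft : X → Y
  ft_proper : ∀ K : Set Y, IsCompact K → IsCompact (ft ⁻¹' K)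
  /-- right action of the orthogonal group -/
  act : O3 → X → X
  act_one : ∀ x, act 1 x = x
  act_mul : ∀ A A' x, act (A * A') x = act A' (act A x)
  act_cont : ∀ A, Continuous (act A)
  act_smul : ∀ A (g : Γ) x, act A (g • x) = g • act A x
  act_trans : ∀ x y, ft x = ft y → ∃ A, y = act A x
  /-- the exponential map in the frame `x` -/
  E : X → E3 → Y
  E_cont : Continuous fun p : X × E3 => E p.1 p.2
  E_zero : ∀ x, E x 0 = ft x
  E_dist : ∀ x u, dist (ft x) (E x u) = ‖u‖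
  E_inj : ∀ x, Function.Injective (E x)
  E_surj : ∀ x, Function.Surjective (E x)
  E_act : ∀ A x u, E (act A x) u = E x (A u)
  E_smul : ∀ (g : Γ) x u, E (g • x) u = g • E x u
  /-- the frame flow -/
  φ : ℝ → X → X
  φ_zero : ∀ x, φ 0 x = x
  φ_add : ∀ s t x, φ (s + t) x = φ s (φ t x)
  φ_cont : Continuous fun p : ℝ × X => φ p.1 p.2
  φ_smul : ∀ t (g : Γ) x, φ t (g • x) = g • φ t x
  E_φ : ∀ t x s, E (φ t x) (s • e0) = E x ((t + s) • e0)
  φ_ext : ∀ t a x, act (ext a) (φ t x) = φ t (act (ext a) x)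
  φ_sg : ∀ t x, act sg (φ t x) = φ (-t) (act sg x)
  /-- the group -/
  cocompact : ∃ K : Set X, IsCompact K ∧ ∀ x, ∃ g : Γ, g • x ∈ K
  proper : ∀ K : Set X, IsCompact K → {g : Γ | ∃ x ∈ K, g • x ∈ K}.Finite
  free : ∀ (g : Γ) (y : Y), g • y = y → g = 1

namespace Geo

variable {Γ X Y : Type} [Group Γ] [MetricSpace X] [ProperSpace X] [MetricSpace Y]
  [ProperSpace Y] [MulAction Γ X] [MulAction Γ Y] [IsIsometricSMul Γ X] [IsIsometricSMul Γ Y]
  (G : Geo Γ X Y)

theorem ft_cont : Continuous G.ft := by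
  have h : G.ft = fun x => G.E x 0 := funext fun x => (G.E_zero x).symm
  rw [h]
  exact G.E_cont.comp (continuous_id.prodMk continuous_const)

theorem ft_smul (g : Γ) (x : X) : G.ft (g • x) = g • G.ft x := by
  rw [← G.E_zero, G.E_smul, G.E_zero]

theorem ft_act (A : O3) (x : X) : G.ft (G.act A x) = G.ft x := by
  rw [← G.E_zero, G.E_act, map_zero, G.E_zero]

theorem ft_φ (t : ℝ) (x : X) : G.ft (G.φ t x) = G.E x (t • e0) := by
  rw [← G.E_zero, ← zero_smul ℝ e0, G.E_φ, add_zero]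

theorem φ_neg_φ (t : ℝ) (x : X) : G.φ (-t) (G.φ t x) = x := by
  rw [← G.φ_add, neg_add_cancel, G.φ_zero]

theorem φ_φ_neg (t : ℝ) (x : X) : G.φ t (G.φ (-t) x) = x := by
  rw [← G.φ_add, add_neg_cancel, G.φ_zero]

/-- change of the last two vectors -/
def rot (a : O2) (x : X) : X := G.act (ext a) x

/-- `v ↦ -v` -/
def flip (x : X) : X := G.act sg x

theorem rot_one (x : X) : G.rot 1 x = x := by rw [rot, ext_one, G.act_one]

theorem rot_mul (a b : O2) (x : X) : G.rot (a * b) x = G.rot b (G.rot a x) := by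
  simp only [rot, ext_mul, G.act_mul]

theorem rot_cont (a : O2) : Continuous (G.rot a) := G.act_cont _

theorem rot_smul (g : Γ) (a : O2) (x : X) : G.rot a (g • x) = g • G.rot a x := G.act_smul _ _ _

theorem rot_φ (a : O2) (t : ℝ) (x : X) : G.rot a (G.φ t x) = G.φ t (G.rot a x) := G.φ_ext _ _ _

theorem flip_flip (x : X) : G.flip (G.flip x) = x := by
  simp only [flip, ← G.act_mul, sg_mul_sg, G.act_one]

theorem flip_cont : Continuous G.flip := G.act_cont _

theorem flip_smul (g : Γ) (x : X) : G.flip (g • x) = g • G.flip x := G.act_smul _ _ _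

theorem flip_φ (t : ℝ) (x : X) : G.flip (G.φ t x) = G.φ (-t) (G.flip x) := G.φ_sg _ _

theorem flip_rot (a : O2) (x : X) : G.flip (G.rot a x) = G.rot a (G.flip x) := by
  simp only [flip, rot, ← G.act_mul, sg_mul_ext]

theorem ft_rot (a : O2) (x : X) : G.ft (G.rot a x) = G.ft x := G.ft_act _ _

theorem ft_flip (x : X) : G.ft (G.flip x) = G.ft x := G.ft_act _ _

/-! ### the line of a frame -/

theorem dist_E (x : X) (s t : ℝ) : dist (G.E x (s • e0)) (G.E x (t • e0)) = |s - t| := by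
  have h1 : G.E x (t • e0) = G.E (G.φ s x) ((t - s) • e0) := by
    rw [G.E_φ, add_sub_cancel]
  rw [← G.ft_φ s x, h1, G.E_dist, norm_smul, norm_e0, mul_one, Real.norm_eq_abs, abs_sub_comm]

/-- the line of a frame -/
def p (x : X) : Ln Y := ⟨fun t => G.E x (t • e0), Isometry.of_dist_eq fun _ _ => by
  rw [G.dist_E, Real.dist_eq]⟩

theorem p_apply (x : X) (t : ℝ) : G.p x t = G.E x (t • e0) := rfl

theorem p_zero (x : X) : G.p x 0 = G.ft x := by rw [p_apply, zero_smul, G.E_zero]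

theorem p_ft (x : X) (t : ℝ) : G.p x t = G.ft (G.φ t x) := by rw [p_apply, G.ft_φ]

theorem p_cont : Continuous G.p := Ln.continuous_mk fun t =>
  G.E_cont.comp (continuous_id.prodMk continuous_const)

theorem p_φ (t : ℝ) (x : X) : G.p (G.φ t x) = (G.p x).φ t := Ln.ext' fun s => by
  rw [p_apply, G.E_φ, Ln.φ_apply, p_apply, add_comm]

theorem p_rot (a : O2) (x : X) : G.p (G.rot a x) = G.p x := Ln.ext' fun s => by
  rw [p_apply, rot, G.E_act, map_smul, ext_e0, p_apply]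

theorem p_flip (x : X) : G.p (G.flip x) = (G.p x).flip := Ln.ext' fun s => by
  rw [p_apply, flip, G.E_act, map_smul, sg_e0, Ln.flip_apply, p_apply, smul_neg, neg_smul]

theorem p_smul (g : Γ) (x : X) : G.p (g • x) = g • G.p x := Ln.ext' fun s => by
  rw [p_apply, G.E_smul, smul_ln_apply, p_apply]

theorem exists_ft (y : Y) : ∃ x, G.ft x = y := by
  obtain ⟨x⟩ := G.nonempty
  obtain ⟨u, hu⟩ := G.E_surj x y
  by_cases h : u = 0
  · refine ⟨x, ?_⟩
    rw [← hu, h, G.E_zero]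
  · have hn : ‖u‖ ≠ 0 := norm_ne_zero_iff.2 h
    have h1 : ‖(‖u‖)⁻¹ • u‖ = 1 := by
      rw [norm_smul, norm_inv, norm_norm, inv_mul_cancel₀ hn]
    obtain ⟨A, hA⟩ := exists_rot_e0 h1
    refine ⟨G.φ ‖u‖ (G.act A x), ?_⟩
    rw [G.ft_φ, G.E_act, map_smul, hA, smul_smul, mul_inv_cancel₀ hn, one_smul, hu]

theorem p_surj (c : Ln Y) : ∃ x, G.p x = c := by
  obtain ⟨x, hx⟩ := G.exists_ft (c 0)
  obtain ⟨u, hu⟩ := G.E_surj x (c 1)
  have h1 : ‖u‖ = 1 := by
    rw [← G.E_dist x u, hu, hx, Ln.dist_eq]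
    norm_num
  obtain ⟨A, hA⟩ := exists_rot_e0 h1
  refine ⟨G.act A x, G.had.line_unique one_pos ?_ ?_⟩
  · rw [p_zero, G.ft_act, hx]
  · rw [p_apply, one_smul, G.E_act, hA, hu]

theorem p_eq_iff {x y : X} : G.p x = G.p y ↔ ∃ a, y = G.rot a x := by
  constructor
  · intro h
    have h0 : G.ft x = G.ft y := by rw [← G.p_zero, ← G.p_zero, h]
    obtain ⟨A, hA⟩ := G.act_trans x y h0
    have h1 : G.E x ((1 : ℝ) • e0) = G.E y ((1 : ℝ) • e0) := by
      rw [← G.p_apply, ← G.p_apply, h]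
    rw [hA, one_smul, G.E_act] at h1
    obtain ⟨a, ha⟩ := exists_ext (G.E_inj x h1).symm
    exact ⟨a, by rw [hA, ha, rot]⟩
  · rintro ⟨a, rfl⟩
    rw [p_rot]

theorem p_proper {K : Set (Ln Y)} (hK : IsCompact K) : IsCompact (G.p ⁻¹' K) := by
  have h1 : IsCompact ((fun c : Ln Y => c 0) '' K) := hK.image (Ln.continuous_eval 0)
  refine (G.ft_proper _ h1).of_isClosed_subset (hK.isClosed.preimage G.p_cont) ?_
  intro x hx
  exact ⟨G.p x, hx, G.p_zero x⟩

theorem isClosedMap_p : IsClosedMap G.p := by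
  intro S hS
  refine isClosed_of_closure_subset fun c hc => ?_
  set K : Set (Ln Y) := {c' | c' 0 ∈ closedBall (c 0) 1} with hK
  have hKc : IsCompact K := Ln.isCompact_eval (isCompact_closedBall _ _)
  have hKn : K ∈ 𝓝 c := by
    have h1 : closedBall (c 0) 1 ∈ 𝓝 (c 0) := closedBall_mem_nhds _ one_pos
    exact (Ln.continuous_eval 0).continuousAt.preimage_mem_nhds h1
  have h2 : IsCompact (G.p '' (S ∩ G.p ⁻¹' K)) :=
    ((G.p_proper hKc).inter_left hS).image G.p_cont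
  have h3 : c ∈ closure (G.p '' (S ∩ G.p ⁻¹' K)) := by
    rw [mem_closure_iff_nhds] at hc ⊢
    intro t ht
    obtain ⟨c', ⟨h4, h5⟩, x, hx, rfl⟩ := hc (t ∩ K) (inter_mem ht hKn)
    exact ⟨G.p x, h4, x, ⟨hx, h5⟩, rfl⟩
  rw [h2.isClosed.closure_eq] at h3
  obtain ⟨x, hx, rfl⟩ := h3
  exact ⟨x, hx.1, rfl⟩

theorem isQuotientMap_p : IsQuotientMap G.p :=
  G.isClosedMap_p.isQuotientMap G.p_cont G.p_surj

/-- the images of open sets are open -/
theorem isOpenMap_p : IsOpenMap G.p := by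
  intro W hW
  rw [← G.isQuotientMap_p.isOpen_preimage]
  have h : G.p ⁻¹' (G.p '' W) = ⋃ a : O2, G.rot a ⁻¹' W := by
    ext x
    simp only [mem_preimage, mem_image, mem_iUnion]
    constructor
    · rintro ⟨y, hy, h1⟩
      obtain ⟨a, rfl⟩ := G.p_eq_iff.1 h1.symm
      exact ⟨a, hy⟩
    · rintro ⟨a, ha⟩
      exact ⟨G.rot a x, ha, G.p_rot a x⟩
  rw [h]
  exact isOpen_iUnion fun a => hW.preimage (G.rot_cont a)

include G in
theorem cocompact_ft : ∃ K : Set Y, IsCompact K ∧ ∀ y, ∃ g : Γ, g • y ∈ K := by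
  obtain ⟨K, hK, h⟩ := G.cocompact
  refine ⟨G.ft '' K, hK.image G.ft_cont, fun y => ?_⟩
  obtain ⟨x, rfl⟩ := G.exists_ft y
  obtain ⟨g, hg⟩ := h x
  exact ⟨g, g • x, hg, G.ft_smul g x⟩

include G in
theorem proper_ft (K : Set Y) (hK : IsCompact K) : {g : Γ | ∃ y ∈ K, g • y ∈ K}.Finite := by
  refine (G.proper _ (G.ft_proper K hK)).subset ?_
  rintro g ⟨y, hy, hy'⟩
  obtain ⟨x, rfl⟩ := G.exists_ft y
  refine ⟨x, hy, ?_⟩
  rw [mem_preimage, G.ft_smul]
  exact hy'

/-- **every nontrivial element has an axis** -/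
theorem exists_axis (β : Γ) (hβ : β ≠ 1) :
    ∃ (x : X) (l : ℝ) (a : O2), 0 < l ∧ β • x = G.φ l (G.rot a x) := by
  have : Nonempty Y := ⟨G.ft G.nonempty.some⟩
  obtain ⟨c, l, hl, h⟩ := H709.exists_axis (Γ := Γ) G.had G.cocompact_ft G.proper_ft
    (fun g y h => G.free g y h) hβ
  obtain ⟨x, rfl⟩ := G.p_surj c
  rw [← G.p_smul, ← G.p_φ] at h
  obtain ⟨a, ha⟩ := G.p_eq_iff.1 h.symm
  exact ⟨x, l, a, hl, by rw [ha, G.rot_φ]⟩

end Geo

end Vale.Agent.P207.N3.H76
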